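import Vale.Agent.P315F.Main

namespace Vale.Agent.Results.P315.NearLinear

open Vale.Agent.P315

open Classical in
theorem result : ∃ P : List Cmd, ∀ a : ℕ, ∃ w : ℕ, ∀ ξ : ℝ, 0 < ξ → ∀ ε : ℝ, 0 < ε →
    ∃ n₀ : ℕ, ∀ n ≥ n₀, ∀ x y : List ℕ, x.length ≤ n → y.length ≤ n →
      (∀ s ∈ x, s < n ^ a) → (∀ s ∈ y, s < n ^ a) → ∀ R : ℕ, (n : ℝ) ^ (1 + ξ) ≤ R →
        (∀ r : Fin R → Bool, ∃ m t, Exec P (n ^ w) (.call 0) (input n x y r) m t ∧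
          (t : ℝ) ≤ (n : ℝ) ^ (1 + ξ)) ∧
        (2 / 3 : ℝ) * 2 ^ R ≤ ((Finset.univ.filter fun r : Fin R → Bool =>
          ∀ m t, Exec P (n ^ w) (.call 0) (input n x y r) m t →
            ED x y ≤ m 4 0 ∧ (m 4 0 : ℝ) ≤ (1 + ε) * ED x y).card : ℝ) :=
  Vale.Agent.P315F.main_unif

end Vale.Agent.Results.P315.NearLinear
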